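import Vale.Agent.P126.Main

namespace Vale.Agent.Results.P126.DualityFails

open Vale.Agent.P126

theorem result :
    (¬ ∃ a b : ℝ, 1 ≤ a ∧ 1 ≤ b ∧
      ∀ n : ℕ, 1 ≤ n → ∀ K L : Set (EuclideanSpace ℝ (Fin n)), IsSymmBody K → IsSymmBody L →
        1 / b * Real.log (coveringNumber (polarBody L) (dilate a (polarBody K))) ≤
            Real.log (coveringNumber K L) ∧
          Real.log (coveringNumber K L) ≤
            b * Real.log (coveringNumber (polarBody L) (dilate a⁻¹ (polarBody K)))) ∧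
    (∀ a b : ℝ, 0 < a → 0 < b →
      ∃ n : ℕ, 1 ≤ n ∧ ∃ K : Set (EuclideanSpace ℝ (Fin n)), IsSymmBody K ∧ IsSymmBody (cube n) ∧
        (∃ m, CoveredBy K (cube n) m) ∧
        (∃ m, CoveredBy (polarBody (cube n)) (dilate a⁻¹ (polarBody K)) m) ∧
        b * Real.log (coveringNumber (polarBody (cube n)) (dilate a⁻¹ (polarBody K))) <
          Real.log (coveringNumber K (cube n))) := by
  refine ⟨?_, fun a b ha hb => ?_⟩
  · rintro ⟨a, b, ha, hb, h⟩
    obtain ⟨n, hn, K, hK, -, -, hlt⟩ := main a b (by linarith) (by linarith)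
    exact absurd (h n hn K _ hK isSymmBody_cube).2 (not_le.2 hlt)
  · obtain ⟨n, hn, K, hK, h1, h2, hlt⟩ := main a b ha hb
    exact ⟨n, hn, K, hK, isSymmBody_cube, h1, h2, hlt⟩

end Vale.Agent.Results.P126.DualityFails
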